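import Mathlib

/-!
A corner check of `N ≤ P` for two polynomials with nonnegative rational coefficients.
-/

namespace Vale.Agent.P224.R2.H919

/-- the value of a polynomial given by its coefficients, lowest first -/
noncomputable def ev : List ℚ → ℝ → ℝ
  | [], _ => 0
  | c :: l, x => (c : ℝ) + x * ev l x

/-- the value at a rational point -/
def evQ : List ℚ → ℚ → ℚ
  | [], _ => 0
  | c :: l, x => c + x * evQ l x

lemma ev_cast (l : List ℚ) (x : ℚ) : ev l (x : ℝ) = ((evQ l x : ℚ) : ℝ) := by
  induction l with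
  | nil => simp [ev, evQ]
  | cons c l ih =>
    rw [ev, evQ, ih]
    push_cast
    ring

/-- all coefficients are nonnegative -/
def nn (l : List ℚ) : Bool := l.all (fun c => decide (0 ≤ c))

lemma nn_cons {c : ℚ} {l : List ℚ} (h : nn (c :: l) = true) : 0 ≤ c ∧ nn l = true := by
  unfold nn at h ⊢
  rw [List.all_cons, Bool.and_eq_true] at h
  exact ⟨of_decide_eq_true h.1, h.2⟩

lemma nn_drop {l : List ℚ} (h : nn l = true) (d : ℕ) : nn (l.drop d) = true := by
  induction d generalizing l with
  | zero => simpa using h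
  | succ d ih =>
    cases l with
    | nil => simpa using h
    | cons c l =>
      rw [List.drop_succ_cons]
      exact ih (nn_cons h).2

lemma ev_nonneg {l : List ℚ} (h : nn l = true) {x : ℝ} (hx : 0 ≤ x) : 0 ≤ ev l x := by
  induction l with
  | nil => exact le_rfl
  | cons c l ih =>
    obtain ⟨h1, h2⟩ := nn_cons h
    have h3 : (0 : ℝ) ≤ c := by exact_mod_cast h1
    exact add_nonneg h3 (mul_nonneg hx (ih h2))

lemma ev_mono {l : List ℚ} (h : nn l = true) {x y : ℝ} (hx : 0 ≤ x) (hxy : x ≤ y) :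
    ev l x ≤ ev l y := by
  induction l with
  | nil => exact le_rfl
  | cons c l ih =>
    obtain ⟨-, h2⟩ := nn_cons h
    exact add_le_add le_rfl (mul_le_mul hxy (ih h2) (ev_nonneg h2 hx) (hx.trans hxy))

/-- the last of a list of break points -/
def lst : ℚ → List ℚ → ℚ
  | p, [] => p
  | _, q :: l => lst q l

/-- the corner check on consecutive break points -/
def chk (P N : List ℚ) : ℚ → List ℚ → Bool
  | _, [] => true
  | p, q :: l => decide (p ≤ q) && decide (evQ N q ≤ evQ P p) && chk P N q l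

lemma chk_le {P N : List ℚ} (l : List ℚ) (p : ℚ) (h : chk P N p l = true) : p ≤ lst p l := by
  induction l generalizing p with
  | nil => exact le_rfl
  | cons q l ih =>
    rw [chk, Bool.and_eq_true, Bool.and_eq_true] at h
    exact (of_decide_eq_true h.1.1).trans (ih q h.2)

lemma chk_sound {P N : List ℚ} (hP : nn P = true) (hN : nn N = true) (l : List ℚ) (p : ℚ)
    (h : chk P N p l = true) (hl : l ≠ []) (hp : (0 : ℚ) ≤ p) {x : ℝ} (hx0 : (p : ℝ) ≤ x)
    (hx1 : x ≤ (lst p l : ℚ)) : ev N x ≤ ev P x := by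
  induction l generalizing p with
  | nil => exact absurd rfl hl
  | cons q l ih =>
    rw [chk, Bool.and_eq_true, Bool.and_eq_true] at h
    obtain ⟨⟨h0, h1⟩, h2⟩ := h
    have hp' : (0 : ℝ) ≤ (p : ℝ) := by exact_mod_cast hp
    have hpq : p ≤ q := of_decide_eq_true h0
    have key : x ≤ (q : ℝ) → ev N x ≤ ev P x := by
      intro hq
      have h3 : ((evQ N q : ℚ) : ℝ) ≤ ((evQ P p : ℚ) : ℝ) := by
        exact_mod_cast of_decide_eq_true h1
      rw [← ev_cast, ← ev_cast] at h3
      exact (ev_mono hN (hp'.trans hx0) hq).trans (h3.trans (ev_mono hP hp' hx0))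
    rcases le_total x (q : ℝ) with hq | hq
    · exact key hq
    · cases l with
      | nil => exact key hx1
      | cons r l => exact ih q h2 (by simp) (hp.trans hpq) hq hx1

/-- growth of a polynomial of degree at most `n` -/
lemma ev_top {l : List ℚ} (h : nn l = true) {n : ℕ} (hn : l.length ≤ n + 1) {r x : ℝ}
    (hr : 0 ≤ r) (hx : r ≤ x) : ev l x * r ^ n ≤ ev l r * x ^ n := by
  induction l generalizing n with
  | nil => simp [ev]
  | cons c l ih =>
    obtain ⟨h1, h2⟩ := nn_cons h
    have h3 : (0 : ℝ) ≤ c := by exact_mod_cast h1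
    have hx0 : 0 ≤ x := hr.trans hx
    rw [ev, ev, add_mul, add_mul]
    refine add_le_add (mul_le_mul_of_nonneg_left (pow_le_pow_left₀ hr hx n) h3) ?_
    cases n with
    | zero =>
      have h4 : l = [] := by
        rw [List.length_cons] at hn
        exact List.eq_nil_of_length_eq_zero (by omega)
      rw [h4]
      simp [ev]
    | succ n =>
      have h5 := ih h2 (n := n) (by rw [List.length_cons] at hn; omega)
      have h6 := mul_le_mul_of_nonneg_left h5 (mul_nonneg hx0 hr)
      calc x * ev l x * r ^ (n + 1) = x * r * (ev l x * r ^ n) := by ring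
        _ ≤ x * r * (ev l r * x ^ n) := h6
        _ = r * ev l r * x ^ (n + 1) := by ring

/-- a polynomial is at least each of its terms -/
lemma term_le {l : List ℚ} (h : nn l = true) (n : ℕ) {x : ℝ} (hx : 0 ≤ x) :
    ((l.getD n 0 : ℚ) : ℝ) * x ^ n ≤ ev l x := by
  induction l generalizing n with
  | nil => simp [ev]
  | cons c l ih =>
    obtain ⟨h1, h2⟩ := nn_cons h
    have h3 : (0 : ℝ) ≤ c := by exact_mod_cast h1
    cases n with
    | zero =>
      rw [List.getD_cons_zero, pow_zero, mul_one, ev]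
      linarith [mul_nonneg hx (ev_nonneg h2 hx)]
    | succ n =>
      rw [List.getD_cons_succ, ev, pow_succ]
      have h4 := mul_le_mul_of_nonneg_left (ih h2 n) hx
      calc ((l.getD n 0 : ℚ) : ℝ) * (x ^ n * x) = x * (((l.getD n 0 : ℚ) : ℝ) * x ^ n) := by ring
        _ ≤ x * ev l x := h4
        _ ≤ c + x * ev l x := by linarith

/-- the leading power dominates from `r` on -/
def topOK (P N : List ℚ) (r : ℚ) : Bool :=
  decide (0 < r) && decide (evQ N r ≤ P.getD (N.length - 1) 0 * r ^ (N.length - 1))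

lemma top_sound {P N : List ℚ} (hP : nn P = true) (hN : nn N = true) {r : ℚ}
    (h : topOK P N r = true) {x : ℝ} (hx : (r : ℝ) ≤ x) : ev N x ≤ ev P x := by
  unfold topOK at h
  rw [Bool.and_eq_true, decide_eq_true_eq, decide_eq_true_eq] at h
  obtain ⟨h0, h1⟩ := h
  obtain ⟨n, hn⟩ : ∃ n, n = N.length - 1 := ⟨_, rfl⟩
  rw [← hn] at h1
  have hr : (0 : ℝ) < r := by exact_mod_cast h0
  have h2 : ev N r ≤ ((P.getD n 0 : ℚ) : ℝ) * (r : ℝ) ^ n := by
    rw [ev_cast]
    exact_mod_cast h1
  have h3 := ev_top hN (n := n) (by omega) hr.le hx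
  have hx0 : (0 : ℝ) ≤ x := hr.le.trans hx
  have h4 := mul_le_mul_of_nonneg_right h2 (pow_nonneg hx0 n)
  have h5 := term_le hP n hx0
  have h6 : ev N x * (r : ℝ) ^ n ≤ ev P x * (r : ℝ) ^ n := by
    refine h3.trans (h4.trans ?_)
    calc ((P.getD n 0 : ℚ) : ℝ) * (r : ℝ) ^ n * x ^ n
        = ((P.getD n 0 : ℚ) : ℝ) * x ^ n * (r : ℝ) ^ n := by ring
      _ ≤ ev P x * (r : ℝ) ^ n := mul_le_mul_of_nonneg_right h5 (pow_nonneg hr.le n)
  exact le_of_mul_le_mul_right h6 (pow_pos hr n)

/-- splitting off low order terms -/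
lemma drop_P {l : List ℚ} (h : nn l = true) (d : ℕ) {x : ℝ} (hx : 0 ≤ x) :
    x ^ d * ev (l.drop d) x ≤ ev l x := by
  induction d generalizing l with
  | zero => simp
  | succ d ih =>
    cases l with
    | nil => simp [ev]
    | cons c l =>
      obtain ⟨h1, h2⟩ := nn_cons h
      have h3 : (0 : ℝ) ≤ c := by exact_mod_cast h1
      rw [List.drop_succ_cons, ev]
      have h4 := mul_le_mul_of_nonneg_left (ih h2) hx
      calc x ^ (d + 1) * ev (l.drop d) x = x * (x ^ d * ev (l.drop d) x) := by ring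
        _ ≤ x * ev l x := h4
        _ ≤ c + x * ev l x := by linarith

lemma drop_N {l : List ℚ} (d : ℕ) (h : (l.take d).all (fun c => decide (c = 0)) = true) (x : ℝ) :
    ev l x = x ^ d * ev (l.drop d) x := by
  induction d generalizing l with
  | zero => simp
  | succ d ih =>
    cases l with
    | nil => simp [ev]
    | cons c l =>
      rw [List.take_succ_cons, List.all_cons, Bool.and_eq_true, decide_eq_true_eq] at h
      rw [List.drop_succ_cons, ev, ih h.2, h.1, pow_succ]
      push_cast
      ring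

/-- the check of `N ≤ P` on `[0, lst]`, on `[0, ∞)` if `top`; the first `d` coefficients of `N`
vanish -/
def uni (P N : List ℚ) (d : ℕ) (brk : List ℚ) (top : Bool) : Bool :=
  nn P && nn N && (N.take d).all (fun c => decide (c = 0)) && !(brk.isEmpty)
    && chk (P.drop d) (N.drop d) 0 brk && (!top || topOK (P.drop d) (N.drop d) (lst 0 brk))

theorem uni_sound {P N : List ℚ} {d : ℕ} {brk : List ℚ} {top : Bool}
    (h : uni P N d brk top = true) {x : ℝ} (hx : 0 ≤ x)
    (hx1 : top = true ∨ x ≤ (lst 0 brk : ℚ)) : ev N x ≤ ev P x := by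
  unfold uni at h
  simp only [Bool.and_eq_true] at h
  obtain ⟨⟨⟨⟨⟨h1, h2⟩, h3⟩, h4⟩, h5⟩, h6⟩ := h
  have hne : brk ≠ [] := by
    intro h
    rw [h] at h4
    simp at h4
  have key : ev (N.drop d) x ≤ ev (P.drop d) x := by
    rcases le_total x ((lst 0 brk : ℚ) : ℝ) with h7 | h7
    · exact chk_sound (nn_drop h1 d) (nn_drop h2 d) brk 0 h5 hne le_rfl (by simpa using hx) h7
    · rcases hx1 with hx1 | hx1
      · rw [hx1] at h6
        simp only [Bool.not_true, Bool.false_or] at h6
        exact top_sound (nn_drop h1 d) (nn_drop h2 d) h6 h7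
      · exact chk_sound (nn_drop h1 d) (nn_drop h2 d) brk 0 h5 hne le_rfl (by simpa using hx) hx1
  rw [drop_N d h3]
  exact (mul_le_mul_of_nonneg_left key (pow_nonneg hx d)).trans (drop_P h1 d hx)

/-- adding a monomial -/
def addM : ℕ → ℚ → List ℚ → List ℚ
  | 0, c, [] => [c]
  | 0, c, d :: l => (c + d) :: l
  | k + 1, c, [] => 0 :: addM k c []
  | k + 1, c, d :: l => d :: addM k c l

lemma ev_addM (k : ℕ) (c : ℚ) (l : List ℚ) (x : ℝ) : ev (addM k c l) x = c * x ^ k + ev l x := by
  induction k generalizing l with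
  | zero =>
    cases l with
    | nil => simp [addM, ev]
    | cons d l =>
      rw [addM, ev, ev]
      push_cast
      ring
  | succ k ih =>
    cases l with
    | nil =>
      show ((0 : ℚ) : ℝ) + x * ev (addM k c []) x = c * x ^ (k + 1) + 0
      rw [ih, ev]
      push_cast
      ring
    | cons d l =>
      show ((d : ℚ) : ℝ) + x * ev (addM k c l) x = c * x ^ (k + 1) + (d + x * ev l x)
      rw [ih]
      ring

/-- a polynomial from a list of monomials -/
def ofM (L : List (ℕ × ℚ)) : List ℚ := L.foldr (fun m l => addM m.1 m.2 l) []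

/-- the sum of a list of monomials -/
noncomputable def mv (L : List (ℕ × ℚ)) (x : ℝ) : ℝ := (L.map fun m => (m.2 : ℝ) * x ^ m.1).sum

lemma ev_ofM (L : List (ℕ × ℚ)) (x : ℝ) : ev (ofM L) x = mv L x := by
  induction L with
  | nil => simp [ofM, ev, mv]
  | cons m L ih =>
    unfold ofM mv at *
    rw [List.foldr_cons, ev_addM, ih, List.map_cons, List.sum_cons]

@[simp] lemma mv_nil (x : ℝ) : mv [] x = 0 := by simp [mv]

@[simp] lemma mv_cons (m : ℕ × ℚ) (L : List (ℕ × ℚ)) (x : ℝ) :
    mv (m :: L) x = (m.2 : ℝ) * x ^ m.1 + mv L x := by simp [mv]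

lemma mv_append (L L' : List (ℕ × ℚ)) (x : ℝ) : mv (L ++ L') x = mv L x + mv L' x := by
  simp [mv]

lemma mv_range (f : ℕ → List (ℕ × ℚ)) (n : ℕ) (x : ℝ) :
    mv ((List.range n).flatMap f) x = ∑ i ∈ Finset.range n, mv (f i) x := by
  induction n with
  | zero => simp
  | succ n ih =>
    rw [List.range_succ, List.flatMap_append, mv_append, ih, Finset.sum_range_succ]
    simp

end Vale.Agent.P224.R2.H919
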