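import Vale.Agent.P224.R2.H869.TlQ
import Vale.Agent.P224.R2.H484.TlS
import Vale.Agent.P224.R2.H919.Uv

/-!
The pointwise inequality of the relative tail near the point `a = 0`.
-/

namespace Vale.Agent.P224.R2.H919

open Vale.Agent.P224.R2.H484 Vale.Agent.P224.R2.H869

/-- the parameters of the check for `a ≤ a0`; `s0` bounds the root of `a0`, `t0` is the parameter of
the mixed term -/
structure Sm where
  j : ℕ
  X2 : ℕ → ℕ → ℚ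
  X1 : ℕ → ℕ → ℚ
  X0 : ℕ → ℕ → ℚ
  z2 : ℚ
  z1 : ℚ
  z0 : ℚ
  M : Mult
  c : ℚ
  a0 : ℚ
  s0 : ℚ
  t0 : ℚ

namespace Sm

variable (S : Sm)

/-- the main terms with a factor `a` -/
def n0a : List (ℕ × ℚ) := (List.range (S.j + 2)).flatMap fun i =>
  (S.j + 1 - i + 2 * i, S.X2 i 0 + S.X1 i 0 * S.t0 / 2) ::
    (List.range i).flatMap fun k =>
      [(S.j + 1 - i + 2 * (i - (k + 1)), S.X2 i (k + 1) * S.a0 ^ (k + 1)),
       (S.j + 1 - i + 2 * (i - (k + 1)) + 1, S.X1 i (k + 1) * S.s0 * S.a0 ^ k),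
       (S.j + 1 - i + 2 * (i - (k + 1)) + 2, S.X0 i (k + 1) * S.a0 ^ k)]

/-- the main terms without a factor `a` -/
def n1a : List (ℕ × ℚ) := (List.range (S.j + 2)).flatMap fun i =>
  [(S.j + 1 - i + 2 * i + 2, S.X1 i 0 / (2 * S.t0) + S.X0 i 0)]

/-- the constant of the remainder terms, of the row of `φ²` and of the mixed row -/
def k0 : ℚ := S.z2 + S.z1 * S.t0 / 2 + S.M.wP * S.M.c1
  + S.M.wX * (4 * S.M.lam ^ 2 / S.M.th * (1 + S.s0) ^ 2)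

def k1 : ℚ := S.z1 / (2 * S.t0) + S.z0
  + S.M.wX * ((S.M.lam ^ 2 + S.M.eta) * (S.s0 * (2 + S.s0)) + 2 * S.M.lam ^ 2 * (1 + S.s0) ^ 2)

def n0f : List (ℕ × ℚ) := (List.range S.M.wF.length).flatMap fun i =>
  [(2 * i, S.M.wF.getD i 0 * (4 * i + 2))]

def n1f : List (ℕ × ℚ) := (List.range S.M.wF.length).flatMap fun i =>
  [(2 * i + 1, S.M.wF.getD i 0 * (2 * S.M.lam))]

def n0q : List (ℕ × ℚ) := (List.range S.M.wQ.length).flatMap fun k =>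
  [(0, S.M.wQ.getD k 0 * ((4 * k + 2) * S.M.lam ^ 2 * (S.s0 ^ (2 * k - 2) * (2 + S.s0) ^ (2 * k)
    * (1 + S.s0) ^ 2) + (S.M.lam ^ 2 + S.M.eta) * (S.s0 ^ (2 * k - 1) * (2 + S.s0) ^ (2 * k + 1))))]

def n0r : List (ℕ × ℚ) := (List.range S.M.wR1.length).flatMap fun l =>
  [(0, S.M.wR1.getD l 0 * (S.M.lam ^ 2 * (1 + 2 * l) * (S.s0 * (2 + S.s0) ^ 3
    * (1 + S.s0) ^ (2 * l)) + 6 * S.M.lam ^ 2 * ((2 + S.s0) ^ 2 * (1 + S.s0) ^ (2 * l + 2))))]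

/-- the negative terms with a factor `a` -/
def n0 : List (ℕ × ℚ) := (0, S.k0) :: (S.n0a ++ (S.n0f ++ (S.n0q ++ S.n0r)))

/-- the negative terms without a factor `a` -/
def n1 : List (ℕ × ℚ) := (2, S.k1) :: (S.n1a ++ S.n1f)

/-- the positive terms without a factor `a` -/
def p1 : List (ℕ × ℚ) := (2, S.M.wP) :: (List.range S.M.wF.length).flatMap fun i =>
  [(2 * i + 2, S.M.wF.getD i 0)]

/-- the signs -/
def sgn : Bool :=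
  S.M.ok && decide (S.M.th ≤ 1) && decide (0 ≤ S.M.eta) && decide (0 < S.a0) && decide (0 ≤ S.s0)
    && decide (S.a0 ≤ S.s0 ^ 2) && decide (0 < S.t0) && decide (0 ≤ S.z2) && decide (0 ≤ S.z1)
    && decide (0 ≤ S.z0) && decide (S.M.wQ.getD 0 0 = 0)
    && S.M.wR0.all (fun w => decide (w = 0))
    && (List.range (S.j + 2)).all (fun i => (List.range (i + 1)).all fun k =>
      decide (0 ≤ S.X2 i k) && decide (0 ≤ S.X1 i k) && decide (0 ≤ S.X0 i k))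

/-- the polynomials of the check at `a = a0` -/
def lP : List ℚ := addM 0 (S.a0 * S.c) (ofM S.p1)
def lN : List ℚ := ofM (S.n1 ++ S.n0.map fun m => (m.1, S.a0 * m.2))

/-- **the check of the region** `a ≤ a0` for dimensions at most `m2` (all dimensions if `m2 = 0`):
break points `b1` at `a = 0`, `b2` at `a = a0` -/
def smlOK (m2 : ℕ) (b1 b2 : List ℚ) : Bool :=
  S.sgn && uni (ofM S.p1) (ofM S.n1) 2 b1 (m2 == 0) && uni S.lP S.lN 0 b2 (m2 == 0)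
    && (m2 == 0 || (decide (0 ≤ lst 0 b1) && decide (m2 * S.a0 ≤ (lst 0 b1) ^ 2)
      && decide (0 ≤ lst 0 b2) && decide (m2 * S.a0 ≤ (lst 0 b2) ^ 2)))

end Sm

/-- the one point polynomial for small `a` -/
lemma ps_le (S : Sm) {a b s φ : ℝ} (hX : ∀ i < S.j + 2, ∀ k < i + 1,
    0 ≤ S.X2 i k ∧ 0 ≤ S.X1 i k ∧ 0 ≤ S.X0 i k) (hz1 : 0 ≤ S.z1) (ht : 0 < S.t0)
    (hs0 : 0 ≤ s) (hs : s ^ 2 = a) (ha0 : a ≤ S.a0) (hss : s ≤ S.s0) (hb0 : 0 ≤ b) (hb : b ≤ a)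
    (hφ : 0 ≤ φ) :
    PS S.j S.X2 S.X1 S.X0 S.z2 S.z1 S.z0 a b φ
      ≤ a * (mv S.n0a φ + (S.z2 + S.z1 * S.t0 / 2)) + (mv S.n1a φ + (S.z1 / (2 * S.t0) + S.z0) * φ ^ 2) := by
  have ha : 0 ≤ a := hs ▸ sq_nonneg s
  have hsq : √a = s := by rw [← hs, Real.sqrt_sq hs0]
  have ht' : (0 : ℝ) < S.t0 := by exact_mod_cast ht
  have hz1' : (0 : ℝ) ≤ S.z1 := by exact_mod_cast hz1
  have hmix : s * φ ≤ a * (S.t0 / 2) + 1 / (2 * S.t0) * φ ^ 2 := by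
    have h1 : 0 ≤ (S.t0 * s - φ) ^ 2 / (2 * S.t0) := by positivity
    have h2 : (S.t0 * s - φ) ^ 2 / (2 * S.t0)
        = s ^ 2 * (S.t0 / 2) + 1 / (2 * S.t0) * φ ^ 2 - s * φ := by
      field_simp
      ring
    rw [h2, hs] at h1
    linarith
  unfold PS
  rw [hsq]
  have hz : (S.z2 : ℝ) * a + S.z1 * (s * φ) + S.z0 * φ ^ 2
      ≤ a * (S.z2 + S.z1 * S.t0 / 2) + (S.z1 / (2 * S.t0) + S.z0) * φ ^ 2 := by
    have h1 := mul_le_mul_of_nonneg_left hmix hz1'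
    have h2 : (S.z1 : ℝ) * (a * (S.t0 / 2) + 1 / (2 * S.t0) * φ ^ 2)
        = a * (S.z1 * S.t0 / 2) + S.z1 / (2 * S.t0) * φ ^ 2 := by ring
    rw [h2] at h1
    linarith
  have hmain : (∑ i ∈ Finset.range (S.j + 2), ∑ k ∈ Finset.range (i + 1),
      ((S.X2 i k : ℝ) * a + (S.X1 i k : ℝ) * (s * φ) + (S.X0 i k : ℝ) * φ ^ 2)
        * (b ^ k * φ ^ (S.j + 1 - i + 2 * (i - k)))) ≤ a * mv S.n0a φ + mv S.n1a φ := by
    unfold Sm.n0a Sm.n1a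
    rw [mv_range, mv_range, Finset.mul_sum, ← Finset.sum_add_distrib]
    refine Finset.sum_le_sum fun i hi => ?_
    have hi' : i < S.j + 2 := Finset.mem_range.1 hi
    rw [Finset.sum_range_succ', mv_cons, mv_range, mv_cons, mv_nil, add_zero, mul_add,
      Finset.mul_sum]
    obtain ⟨g2, g1, g0⟩ := hX i hi' 0 (by omega)
    have g2' : (0 : ℝ) ≤ S.X2 i 0 := by exact_mod_cast g2
    have g1' : (0 : ℝ) ≤ S.X1 i 0 := by exact_mod_cast g1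
    have g0' : (0 : ℝ) ≤ S.X0 i 0 := by exact_mod_cast g0
    have h0 : ((S.X2 i 0 : ℝ) * a + (S.X1 i 0 : ℝ) * (s * φ) + (S.X0 i 0 : ℝ) * φ ^ 2)
        * (b ^ 0 * φ ^ (S.j + 1 - i + 2 * (i - 0)))
        ≤ a * (((S.X2 i 0 + S.X1 i 0 * S.t0 / 2 : ℚ) : ℝ) * φ ^ (S.j + 1 - i + 2 * i))
          + ((S.X1 i 0 / (2 * S.t0) + S.X0 i 0 : ℚ) : ℝ) * φ ^ (S.j + 1 - i + 2 * i + 2) := by
      rw [pow_zero, one_mul, Nat.sub_zero]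
      have h1 := mul_le_mul_of_nonneg_left hmix g1'
      have h2 : (0 : ℝ) ≤ φ ^ (S.j + 1 - i + 2 * i) := pow_nonneg hφ _
      have h3 : (S.X2 i 0 : ℝ) * a + (S.X1 i 0 : ℝ) * (s * φ) + (S.X0 i 0 : ℝ) * φ ^ 2
          ≤ (S.X2 i 0 : ℝ) * a + S.X1 i 0 * (a * (S.t0 / 2) + 1 / (2 * S.t0) * φ ^ 2)
            + (S.X0 i 0 : ℝ) * φ ^ 2 := by linarith
      refine (mul_le_mul_of_nonneg_right h3 h2).trans (le_of_eq ?_)
      push_cast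
      rw [pow_add φ _ 2]
      ring
    have hk : ∑ k ∈ Finset.range i,
        ((S.X2 i (k + 1) : ℝ) * a + (S.X1 i (k + 1) : ℝ) * (s * φ)
          + (S.X0 i (k + 1) : ℝ) * φ ^ 2) * (b ^ (k + 1) * φ ^ (S.j + 1 - i + 2 * (i - (k + 1))))
        ≤ ∑ k ∈ Finset.range i, a * mv
          [(S.j + 1 - i + 2 * (i - (k + 1)), S.X2 i (k + 1) * S.a0 ^ (k + 1)),
           (S.j + 1 - i + 2 * (i - (k + 1)) + 1, S.X1 i (k + 1) * S.s0 * S.a0 ^ k),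
           (S.j + 1 - i + 2 * (i - (k + 1)) + 2, S.X0 i (k + 1) * S.a0 ^ k)] φ := by
      refine Finset.sum_le_sum fun k hk => ?_
      have hk' : k < i := Finset.mem_range.1 hk
      obtain ⟨g2, g1, g0⟩ := hX i hi' (k + 1) (by omega)
      have g2' : (0 : ℝ) ≤ S.X2 i (k + 1) := by exact_mod_cast g2
      have g1' : (0 : ℝ) ≤ S.X1 i (k + 1) := by exact_mod_cast g1
      have g0' : (0 : ℝ) ≤ S.X0 i (k + 1) := by exact_mod_cast g0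
      have hs0' : (0 : ℝ) ≤ S.s0 := hs0.trans hss
      have ha0' : (0 : ℝ) ≤ S.a0 := ha.trans ha0
      have h1 : (S.X2 i (k + 1) : ℝ) * a + (S.X1 i (k + 1) : ℝ) * (s * φ)
          + (S.X0 i (k + 1) : ℝ) * φ ^ 2
          ≤ (S.X2 i (k + 1) : ℝ) * S.a0 + (S.X1 i (k + 1) : ℝ) * (S.s0 * φ)
            + (S.X0 i (k + 1) : ℝ) * φ ^ 2 :=
        add_le_add (add_le_add (mul_le_mul_of_nonneg_left ha0 g2')
          (mul_le_mul_of_nonneg_left (mul_le_mul_of_nonneg_right hss hφ) g1')) le_rfl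
      have h2 : b ^ (k + 1) ≤ a * S.a0 ^ k := by
        rw [pow_succ, mul_comm]
        exact mul_le_mul hb (pow_le_pow_left₀ hb0 (hb.trans ha0) k) (pow_nonneg hb0 k) ha
      have h3 : b ^ (k + 1) * φ ^ (S.j + 1 - i + 2 * (i - (k + 1)))
          ≤ a * S.a0 ^ k * φ ^ (S.j + 1 - i + 2 * (i - (k + 1))) :=
        mul_le_mul_of_nonneg_right h2 (pow_nonneg hφ _)
      have h4 := mul_le_mul h1 h3 (by positivity) (by positivity)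
      refine h4.trans (le_of_eq ?_)
      rw [mv_cons, mv_cons, mv_cons, mv_nil]
      push_cast
      rw [pow_add φ _ 2, pow_add φ _ 1, pow_succ (S.a0 : ℝ) k]
      ring
    linarith
  linarith

section rows

variable {a q s s0 φ Λ η : ℝ}

lemma q_abs (hq1 : |q| ≤ s * (2 + s)) (hs0 : 0 ≤ s) (hs : s ^ 2 = a) (hss : s ≤ s0) :
    q ^ 2 ≤ a * (2 + s0) ^ 2 ∧ |q| ≤ s * (2 + s0) ∧ |q| ≤ s0 * (2 + s0) := by
  have h1 : s * (2 + s) ≤ s * (2 + s0) := mul_le_mul_of_nonneg_left (by linarith) hs0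
  have h2 : |q| ≤ s * (2 + s0) := hq1.trans h1
  refine ⟨?_, h2, h2.trans (mul_le_mul_of_nonneg_right hss (by linarith))⟩
  rw [← sq_abs, ← hs, ← mul_pow]
  exact pow_le_pow_left₀ (abs_nonneg q) h2 2

/-- powers of `q` -/
lemma q_pow (hq1 : |q| ≤ s * (2 + s)) (hs0 : 0 ≤ s) (hs : s ^ 2 = a) (hss : s ≤ s0) (n : ℕ) :
    |q| ^ (n + 2) ≤ a * (s0 ^ n * (2 + s0) ^ (n + 2)) := by
  obtain ⟨-, h2, -⟩ := q_abs hq1 hs0 hs hss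
  have h3 := pow_le_pow_left₀ (abs_nonneg q) h2 (n + 2)
  refine h3.trans ?_
  have h4 : s ^ n ≤ s0 ^ n := pow_le_pow_left₀ hs0 hss n
  have h5 : (0 : ℝ) ≤ (2 + s0) ^ (n + 2) := pow_nonneg (by linarith) _
  have ha : 0 ≤ a := hs ▸ sq_nonneg s
  calc (s * (2 + s0)) ^ (n + 2) = s ^ 2 * (s ^ n * (2 + s0) ^ (n + 2)) := by
        rw [mul_pow, pow_add s]
        ring
    _ = a * (s ^ n * (2 + s0) ^ (n + 2)) := by rw [hs]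
    _ ≤ a * (s0 ^ n * (2 + s0) ^ (n + 2)) :=
      mul_le_mul_of_nonneg_left (mul_le_mul_of_nonneg_right h4 h5) ha

lemma t_pow (hq2 : 0 ≤ 1 + q) (hq3 : 1 + q ≤ (1 + s) ^ 2) (hs0 : 0 ≤ s) (hss : s ≤ s0) (n : ℕ) :
    (1 + q) ^ n ≤ (1 + s0) ^ (2 * n) := by
  rw [pow_mul]
  refine pow_le_pow_left₀ hq2 (hq3.trans ?_) n
  exact pow_le_pow_left₀ (by linarith) (by linarith) 2

lemma max_le_abs (q : ℝ) : max q 0 ≤ |q| ∧ max (-q) 0 ≤ |q| :=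
  ⟨max_le (le_abs_self q) (abs_nonneg q), max_le (neg_le_abs q) (abs_nonneg q)⟩

/-- the row of `φ` -/
lemma ff_ge (i : ℕ) (hφ : 0 ≤ φ) :
    φ ^ (2 * i + 2) - a * ((4 * i + 2) * φ ^ (2 * i)) - 2 * Λ * φ ^ (2 * i + 1)
      ≤ FF1 Λ i a q φ := by
  unfold FF1
  have h1 : (0 : ℝ) ≤ (4 * i + 2) * φ ^ (2 * i) := by positivity
  have h2 := mul_nonneg h1 (by positivity : (0 : ℝ) ≤ (a - q) ^ 2 / 4)
  nlinarith

/-- the row of `q^(2k+2)` -/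
lemma qq_ge (k : ℕ) (hη : 0 ≤ η) (hq1 : |q| ≤ s * (2 + s)) (hq2 : 0 ≤ 1 + q)
    (hq3 : 1 + q ≤ (1 + s) ^ 2) (hs0 : 0 ≤ s) (hs : s ^ 2 = a) (hss : s ≤ s0) :
    -(a * ((4 * ((k : ℝ) + 1) + 2) * Λ ^ 2 * (s0 ^ (2 * k) * (2 + s0) ^ (2 * k + 2) * (1 + s0) ^ 2)
      + (Λ ^ 2 + η) * (s0 ^ (2 * k + 1) * (2 + s0) ^ (2 * k + 3)))) ≤ QQ1 Λ η (k + 1) q := by
  have ha : 0 ≤ a := hs ▸ sq_nonneg s
  unfold QQ1
  have e1 : q ^ (2 * (k + 1)) = |q| ^ (2 * k + 2) := by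
    rw [show 2 * (k + 1) = 2 * k + 2 by ring, ← abs_pow, abs_of_nonneg]
    exact (Even.pow_nonneg ⟨k + 1, by ring⟩ q)
  have h0 : 0 ≤ q ^ (2 * (k + 1) + 2) := Even.pow_nonneg ⟨k + 2, by ring⟩ q
  have h1 := q_pow hq1 hs0 hs hss (2 * k)
  have h2 := q_pow hq1 hs0 hs hss (2 * k + 1)
  have h3 := t_pow hq2 hq3 hs0 hss 1
  rw [pow_one, mul_one] at h3
  have h4 : q ^ (2 * (k + 1)) * (1 + q)
      ≤ a * (s0 ^ (2 * k) * (2 + s0) ^ (2 * k + 2)) * (1 + s0) ^ 2 := by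
    rw [e1]
    exact mul_le_mul h1 h3 hq2 ((pow_nonneg (abs_nonneg q) _).trans h1)
  have h5 : (0 : ℝ) ≤ (4 * ((k : ℝ) + 1) + 2) * Λ ^ 2 := by positivity
  have h6 := mul_le_mul_of_nonneg_left h4 h5
  obtain ⟨m1, m2⟩ := max_le_abs q
  have h7 : Λ ^ 2 * max q 0 ^ (2 * (k + 1) + 1) + (Λ ^ 2 + η) * max (-q) 0 ^ (2 * (k + 1) + 1)
      ≤ (Λ ^ 2 + η) * |q| ^ (2 * k + 1 + 2) := by
    have e2 : 2 * (k + 1) + 1 = 2 * k + 1 + 2 := by ring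
    rw [e2]
    rcases le_total 0 q with hq | hq
    · rw [max_eq_left hq, max_eq_right (by linarith : -q ≤ 0), zero_pow (by omega), mul_zero,
        add_zero, abs_of_nonneg hq]
      exact mul_le_mul_of_nonneg_right (by linarith) (pow_nonneg hq _)
    · rw [max_eq_right hq, max_eq_left (by linarith : 0 ≤ -q), zero_pow (by omega), mul_zero,
        zero_add, abs_of_nonpos hq]
  have h8 := mul_le_mul_of_nonneg_left h2 (by positivity : (0 : ℝ) ≤ Λ ^ 2 + η)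
  push_cast
  nlinarith

/-- the row of `q_+` -/
lemma rr_ge (l : ℕ) (hq1 : |q| ≤ s * (2 + s)) (hq2 : 0 ≤ 1 + q)
    (hq3 : 1 + q ≤ (1 + s) ^ 2) (hs0 : 0 ≤ s) (hs : s ^ 2 = a) (hss : s ≤ s0) :
    -(a * (Λ ^ 2 * (1 + 2 * l) * (s0 * (2 + s0) ^ 3 * (1 + s0) ^ (2 * l))
      + 6 * Λ ^ 2 * ((2 + s0) ^ 2 * (1 + s0) ^ (2 * l + 2)))) ≤ RR1 Λ 1 l q := by
  have ha : 0 ≤ a := hs ▸ sq_nonneg s
  obtain ⟨m1, -⟩ := max_le_abs q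
  have m0 : 0 ≤ max q 0 := le_max_right _ _
  unfold RR1
  have h0 : 0 ≤ max q 0 ^ (1 + 3) * (1 + q) ^ l :=
    mul_nonneg (pow_nonneg m0 _) (pow_nonneg hq2 _)
  have h1 : max q 0 ^ (1 + 2) ≤ a * (s0 ^ 1 * (2 + s0) ^ (1 + 2)) :=
    (pow_le_pow_left₀ m0 m1 _).trans (q_pow hq1 hs0 hs hss 1)
  have h2 : max q 0 ^ (1 + 1) ≤ a * (s0 ^ 0 * (2 + s0) ^ (0 + 2)) :=
    (pow_le_pow_left₀ m0 m1 _).trans (q_pow hq1 hs0 hs hss 0)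
  have t1 := t_pow hq2 hq3 hs0 hss l
  have t2 := t_pow hq2 hq3 hs0 hss (l + 1)
  have h3 := mul_le_mul h1 t1 (pow_nonneg hq2 _) ((pow_nonneg m0 _).trans h1)
  have h4 := mul_le_mul h2 t2 (pow_nonneg hq2 _) ((pow_nonneg m0 _).trans h2)
  have h5 := mul_le_mul_of_nonneg_left h3 (by positivity : (0 : ℝ) ≤ Λ ^ 2 * (1 + 2 * l))
  have h6 := mul_le_mul_of_nonneg_left h4 (by positivity : (0 : ℝ) ≤ 6 * Λ ^ 2)
  have e1 : Λ ^ 2 * (max q 0 ^ (1 + 2) * (1 + q) ^ l)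
      + 2 * Λ ^ 2 * ((((1 : ℕ) : ℝ) + 2) * max q 0 ^ (1 + 1) * (1 + q) ^ (l + 1)
        + l * max q 0 ^ (1 + 2) * (1 + q) ^ l)
      = Λ ^ 2 * (1 + 2 * l) * (max q 0 ^ (1 + 2) * (1 + q) ^ l)
        + 6 * Λ ^ 2 * (max q 0 ^ (1 + 1) * (1 + q) ^ (l + 1)) := by
    push_cast
    ring
  have e2 : a * (s0 ^ 1 * (2 + s0) ^ (1 + 2)) * (1 + s0) ^ (2 * l)
      = a * (s0 * (2 + s0) ^ 3 * (1 + s0) ^ (2 * l)) := by ring
  have e3 : a * (s0 ^ 0 * (2 + s0) ^ (0 + 2)) * (1 + s0) ^ (2 * (l + 1))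
      = a * ((2 + s0) ^ 2 * (1 + s0) ^ (2 * l + 2)) := by ring
  rw [e2] at h5
  rw [e3] at h6
  linarith

/-- the mixed row -/
lemma xx_ge {θ : ℝ} (hθ : 0 < θ) (hθ1 : θ ≤ 1) (hη : 0 ≤ η)
    (hq1 : |q| ≤ s * (2 + s)) (hq2 : 0 ≤ 1 + q)
    (hq3 : 1 + q ≤ (1 + s) ^ 2) (hs0 : 0 ≤ s) (hs : s ^ 2 = a) (hss : s ≤ s0) :
    -(a * (4 * Λ ^ 2 / θ * (1 + s0) ^ 2))
      - ((Λ ^ 2 + η) * (s0 * (2 + s0)) + 2 * Λ ^ 2 * (1 + s0) ^ 2) * φ ^ 2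
      ≤ XX1 Λ η θ a q φ := by
  have ha : 0 ≤ a := hs ▸ sq_nonneg s
  obtain ⟨-, -, g3⟩ := q_abs hq1 hs0 hs hss
  have t1 := t_pow hq2 hq3 hs0 hss 1
  rw [pow_one, mul_one] at t1
  unfold XX1
  have hp : 0 ≤ φ ^ 2 := sq_nonneg φ
  have h0 : 0 ≤ (1 - θ) * (φ ^ 2 * q ^ 2) :=
    mul_nonneg (by linarith) (mul_nonneg hp (sq_nonneg q))
  have h1 : Λ ^ 2 * (φ ^ 2 * max q 0) + (Λ ^ 2 + η) * (φ ^ 2 * max (-q) 0)
      ≤ (Λ ^ 2 + η) * (φ ^ 2 * |q|) := by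
    rcases le_total 0 q with hq | hq
    · rw [max_eq_left hq, max_eq_right (by linarith : -q ≤ 0), mul_zero, mul_zero, add_zero,
        abs_of_nonneg hq]
      exact mul_le_mul_of_nonneg_right (by linarith) (mul_nonneg hp hq)
    · rw [max_eq_right hq, max_eq_left (by linarith : 0 ≤ -q), mul_zero, mul_zero, zero_add,
        abs_of_nonpos hq]
  have h2 : (Λ ^ 2 + η) * (φ ^ 2 * |q|) ≤ (Λ ^ 2 + η) * (φ ^ 2 * (s0 * (2 + s0))) :=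
    mul_le_mul_of_nonneg_left (mul_le_mul_of_nonneg_left g3 hp) (by positivity)
  have h3 : (a - (a - q) ^ 2 / 4) * (1 + q) ≤ a * (1 + s0) ^ 2 := by
    have h4 : (a - (a - q) ^ 2 / 4) * (1 + q) ≤ a * (1 + q) :=
      mul_le_mul_of_nonneg_right (by nlinarith [sq_nonneg (a - q)]) hq2
    exact h4.trans (mul_le_mul_of_nonneg_left t1 ha)
  have h4 := mul_le_mul_of_nonneg_left h3 (by positivity : (0 : ℝ) ≤ 4 * Λ ^ 2 / θ)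
  have h5 := mul_le_mul_of_nonneg_left (mul_le_mul_of_nonneg_left t1 hp)
    (by positivity : (0 : ℝ) ≤ 2 * Λ ^ 2)
  nlinarith

end rows

/-- the sum of the rows for small `a` -/
lemma row_ge (S : Sm) {a q s φ : ℝ} (hok : S.M.ok = true) (hθ1 : S.M.th ≤ 1) (hη : 0 ≤ S.M.eta)
    (hQ0 : S.M.wQ.getD 0 0 = 0) (hR0 : S.M.wR0.all (fun w => decide (w = 0)) = true)
    (hφ : 0 ≤ φ) (hq1 : |q| ≤ s * (2 + s)) (hq2 : 0 ≤ 1 + q) (hq3 : 1 + q ≤ (1 + s) ^ 2)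
    (hs0 : 0 ≤ s) (hs : s ^ 2 = a) (hss : s ≤ S.s0) :
    mv S.p1 φ - mv S.n1f φ - a * (mv S.n0f φ + (mv S.n0q φ + mv S.n0r φ))
      - a * (S.M.wP * S.M.c1 + S.M.wX * (4 * S.M.lam ^ 2 / S.M.th * (1 + S.s0) ^ 2))
      - S.M.wX * ((S.M.lam ^ 2 + S.M.eta) * (S.s0 * (2 + S.s0))
        + 2 * S.M.lam ^ 2 * (1 + S.s0) ^ 2) * φ ^ 2 ≤ S.M.row a q φ := by
  obtain ⟨hl, hθ, hP, hX, hF, hQ, -, hR⟩ := Mult.ok_spec hok
  have hθ' : (0 : ℝ) < S.M.th := by exact_mod_cast hθ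
  have hθ1' : (S.M.th : ℝ) ≤ 1 := by exact_mod_cast hθ1
  have hη' : (0 : ℝ) ≤ S.M.eta := by exact_mod_cast hη
  have hX' : (0 : ℝ) ≤ S.M.wX := by exact_mod_cast hX
  unfold Mult.row Mult.cmb
  have h1 := mul_le_mul_of_nonneg_left
    (xx_ge (Λ := (S.M.lam : ℝ)) (φ := φ) hθ' hθ1' hη' hq1 hq2 hq3 hs0 hs hss) hX'
  have h2 : mv S.p1 φ - S.M.wP * φ ^ 2 - mv S.n1f φ - a * mv S.n0f φ
      ≤ ∑ i ∈ Finset.range S.M.wF.length,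
        ((S.M.wF.getD i 0 : ℚ) : ℝ) * FF1 S.M.lam i a q φ := by
    unfold Sm.p1 Sm.n1f Sm.n0f
    rw [mv_cons, mv_range, mv_range, mv_range, Finset.mul_sum]
    have h3 : ∑ i ∈ Finset.range S.M.wF.length, mv [(2 * i + 2, S.M.wF.getD i 0)] φ
        - ∑ i ∈ Finset.range S.M.wF.length,
          mv [(2 * i + 1, S.M.wF.getD i 0 * (2 * S.M.lam))] φ
        - ∑ i ∈ Finset.range S.M.wF.length,
          a * mv [(2 * i, S.M.wF.getD i 0 * (4 * (i : ℚ) + 2))] φ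
        ≤ ∑ i ∈ Finset.range S.M.wF.length,
          ((S.M.wF.getD i 0 : ℚ) : ℝ) * FF1 S.M.lam i a q φ := by
      rw [← Finset.sum_sub_distrib, ← Finset.sum_sub_distrib]
      refine Finset.sum_le_sum fun i _ => ?_
      have h4 := mul_le_mul_of_nonneg_left (ff_ge (a := a) (q := q) (Λ := (S.M.lam : ℝ)) i hφ)
        (hF i)
      simp only [mv_cons, mv_nil]
      push_cast
      linarith
    dsimp only
    linarith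
  have h3 : -(a * mv S.n0q φ) ≤ ∑ i ∈ Finset.range S.M.wQ.length,
      ((S.M.wQ.getD i 0 : ℚ) : ℝ) * QQ1 S.M.lam S.M.eta i q := by
    unfold Sm.n0q
    rw [mv_range, Finset.mul_sum, ← Finset.sum_neg_distrib]
    refine Finset.sum_le_sum fun i _ => ?_
    cases i with
    | zero =>
      rw [hQ0]
      simp
    | succ k =>
      have h4 := mul_le_mul_of_nonneg_left
        (qq_ge (Λ := (S.M.lam : ℝ)) k hη' hq1 hq2 hq3 hs0 hs hss) (hQ (k + 1))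
      rw [mv_cons, mv_nil, add_zero, pow_zero, mul_one]
      have e1 : 2 * (k + 1) - 2 = 2 * k := by omega
      have e2 : 2 * (k + 1) = 2 * k + 2 := by ring
      have e3 : 2 * (k + 1) - 1 = 2 * k + 1 := by omega
      have e4 : 2 * (k + 1) + 1 = 2 * k + 3 := by ring
      simp only [e1, e3, e4]
      rw [e2]
      push_cast at h4 ⊢
      linarith
  have h4 : -(a * mv S.n0r φ) ≤ ∑ i ∈ Finset.range S.M.wR1.length,
      ((S.M.wR1.getD i 0 : ℚ) : ℝ) * RR1 S.M.lam 1 i q := by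
    unfold Sm.n0r
    rw [mv_range, Finset.mul_sum, ← Finset.sum_neg_distrib]
    refine Finset.sum_le_sum fun i _ => ?_
    have h5 := mul_le_mul_of_nonneg_left
      (rr_ge (Λ := (S.M.lam : ℝ)) i hq1 hq2 hq3 hs0 hs hss) (hR i)
    rw [mv_cons, mv_nil, add_zero, pow_zero, mul_one]
    push_cast at h5 ⊢
    linarith
  have h5 : ∑ i ∈ Finset.range S.M.wR0.length,
      ((S.M.wR0.getD i 0 : ℚ) : ℝ) * RR1 S.M.lam 0 i q = 0 := by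
    refine Finset.sum_eq_zero fun i hi => ?_
    have h6 : S.M.wR0.getD i 0 = 0 := by
      rw [List.getD_eq_getElem _ _ (Finset.mem_range.1 hi)]
      rw [List.all_eq_true] at hR0
      exact of_decide_eq_true (hR0 _ (List.getElem_mem (Finset.mem_range.1 hi)))
    rw [h6]
    simp
  rw [h5]
  linarith

lemma smlOK_spec {S : Sm} {m2 : ℕ} {b1 b2 : List ℚ} (h : S.smlOK m2 b1 b2 = true) :
    S.sgn = true ∧ uni (ofM S.p1) (ofM S.n1) 2 b1 (m2 == 0) = true ∧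
      uni S.lP S.lN 0 b2 (m2 == 0) = true ∧ (m2 = 0 ∨ ((0 ≤ lst 0 b1 ∧
        (m2 : ℚ) * S.a0 ≤ (lst 0 b1) ^ 2) ∧ (0 ≤ lst 0 b2 ∧ (m2 : ℚ) * S.a0 ≤ (lst 0 b2) ^ 2))) := by
  unfold Sm.smlOK at h
  rw [Bool.and_eq_true, Bool.and_eq_true, Bool.and_eq_true] at h
  obtain ⟨⟨⟨h1, h2⟩, h3⟩, h4⟩ := h
  refine ⟨h1, h2, h3, ?_⟩
  rw [Bool.or_eq_true] at h4
  rcases h4 with h4 | h4
  · exact Or.inl (by simpa using h4)
  · right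
    rw [Bool.and_eq_true, Bool.and_eq_true, Bool.and_eq_true] at h4
    obtain ⟨⟨⟨v1, v2⟩, v3⟩, v4⟩ := h4
    exact ⟨⟨of_decide_eq_true v1, of_decide_eq_true v2⟩,
      ⟨of_decide_eq_true v3, of_decide_eq_true v4⟩⟩

lemma sgn_spec {S : Sm} (h : S.sgn = true) : (S.M.ok = true ∧ S.M.th ≤ 1 ∧ 0 ≤ S.M.eta ∧
    S.M.wQ.getD 0 0 = 0 ∧ S.M.wR0.all (fun w => decide (w = 0)) = true) ∧
    (0 < S.a0 ∧ 0 ≤ S.s0 ∧ S.a0 ≤ S.s0 ^ 2 ∧ 0 < S.t0) ∧ 0 ≤ S.z1 ∧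
    ∀ i < S.j + 2, ∀ k < i + 1, 0 ≤ S.X2 i k ∧ 0 ≤ S.X1 i k ∧ 0 ≤ S.X0 i k := by
  unfold Sm.sgn at h
  simp only [Bool.and_eq_true, decide_eq_true_eq] at h
  obtain ⟨⟨⟨⟨⟨⟨⟨⟨⟨⟨⟨⟨g1, g2⟩, g3⟩, g4⟩, g5⟩, g6⟩, g7⟩, -⟩, g9⟩, -⟩, g11⟩, g12⟩, g13⟩ := h
  refine ⟨⟨g1, g2, g3, g11, g12⟩, ⟨g4, g5, g6, g7⟩, g9, fun i hi k hk => ?_⟩
  rw [List.all_eq_true] at g13
  have h1 := g13 i (List.mem_range.2 hi)
  rw [List.all_eq_true] at h1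
  have h2 := h1 k (List.mem_range.2 hk)
  simp only [Bool.and_eq_true, decide_eq_true_eq] at h2
  exact ⟨h2.1.1, h2.1.2, h2.2⟩

/-- the two univariate checks -/
lemma sml_main {S : Sm} {m2 : ℕ} {b1 b2 : List ℚ} (h : S.smlOK m2 b1 b2 = true) {a φ : ℝ}
    (ha : 0 ≤ a) (ha0 : a ≤ S.a0) (hφ : 0 ≤ φ) (h1 : m2 ≠ 0 → φ ^ 2 ≤ m2 * S.a0) :
    a * mv S.n0 φ + mv S.n1 φ ≤ S.c * a + mv S.p1 φ := by
  obtain ⟨hs, u1, u2, u3⟩ := smlOK_spec h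
  obtain ⟨-, ⟨g4, -, -, -⟩, -, -⟩ := sgn_spec hs
  have g4' : (0 : ℝ) < S.a0 := by exact_mod_cast g4
  have hlast : m2 ≠ 0 → φ ≤ (lst 0 b1 : ℚ) ∧ φ ≤ (lst 0 b2 : ℚ) := by
    intro h0
    obtain ⟨⟨v1, v2⟩, ⟨v3, v4⟩⟩ := u3.resolve_left h0
    have v2' : (m2 : ℝ) * S.a0 ≤ ((lst 0 b1 : ℚ) : ℝ) ^ 2 := by exact_mod_cast v2
    have v4' : (m2 : ℝ) * S.a0 ≤ ((lst 0 b2 : ℚ) : ℝ) ^ 2 := by exact_mod_cast v4
    have v1' : (0 : ℝ) ≤ ((lst 0 b1 : ℚ) : ℝ) := by exact_mod_cast v1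
    have v3' : (0 : ℝ) ≤ ((lst 0 b2 : ℚ) : ℝ) := by exact_mod_cast v3
    exact ⟨abs_le_of_sq_le_sq' ((h1 h0).trans v2') v1' |>.2,
      abs_le_of_sq_le_sq' ((h1 h0).trans v4') v3' |>.2⟩
  have hI : mv S.n1 φ ≤ mv S.p1 φ := by
    have h1 := uni_sound u1 hφ (by
      rcases eq_or_ne m2 0 with h0 | h0
      · exact Or.inl (by rw [h0]; rfl)
      · exact Or.inr (hlast h0).1)
    rwa [ev_ofM, ev_ofM] at h1
  have hII : mv S.n1 φ + S.a0 * mv S.n0 φ ≤ S.a0 * S.c + mv S.p1 φ := by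
    have h1 := uni_sound u2 hφ (by
      rcases eq_or_ne m2 0 with h0 | h0
      · exact Or.inl (by rw [h0]; rfl)
      · exact Or.inr (hlast h0).2)
    unfold Sm.lP Sm.lN at h1
    rw [ev_ofM, ev_addM, ev_ofM, mv_append, pow_zero, mul_one] at h1
    have e : mv (S.n0.map fun m => (m.1, S.a0 * m.2)) φ = S.a0 * mv S.n0 φ := by
      unfold mv
      rw [List.map_map, ← List.sum_map_mul_left]
      refine congrArg List.sum (List.map_congr_left fun m _ => ?_)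
      simp only [Function.comp_apply]
      push_cast
      ring
    rw [e] at h1
    push_cast at h1
    exact h1
  have h1 := mul_le_mul_of_nonneg_left hII ha
  have h2 := mul_le_mul_of_nonneg_left hI (by linarith : 0 ≤ (S.a0 : ℝ) - a)
  have h3 : (S.a0 : ℝ) * (a * mv S.n0 φ + mv S.n1 φ) ≤ S.a0 * (S.c * a + mv S.p1 φ) := by
    nlinarith
  exact le_of_mul_le_mul_left h3 g4'

/-- the small region in the variables `a`, `b`, `q`, `φ` -/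
lemma sml_abq {S : Sm} {m2 : ℕ} {b1 b2 : List ℚ} (h : S.smlOK m2 b1 b2 = true)
    {a b q s φ : ℝ} (hφ : 0 ≤ φ) (h1 : m2 ≠ 0 → φ ^ 2 ≤ m2 * S.a0)
    (hq1 : |q| ≤ s * (2 + s)) (hq2 : 0 ≤ 1 + q) (hq3 : 1 + q ≤ (1 + s) ^ 2)
    (hs0 : 0 ≤ s) (hs : s ^ 2 = a) (ha0 : a ≤ S.a0) (hss : s ≤ S.s0) (hb0 : 0 ≤ b)
    (hba : b ≤ a) :
    PS S.j S.X2 S.X1 S.X0 S.z2 S.z1 S.z0 a b φ ≤ S.c * a + S.M.row a q φ := by
  have ha : 0 ≤ a := hs ▸ sq_nonneg s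
  have hmain := sml_main h ha ha0 hφ h1
  obtain ⟨hsg, -, -, -⟩ := smlOK_spec h
  obtain ⟨⟨g1, g2, g3, g11, g12⟩, ⟨-, -, -, g7⟩, g9, hX⟩ := sgn_spec hsg
  have hps := ps_le S hX g9 g7 hs0 hs ha0 hss hb0 hba hφ
  have hrow := row_ge S g1 g2 g3 g11 g12 hφ hq1 hq2 hq3 hs0 hs hss
  have e0 : mv S.n0 φ = S.z2 + S.z1 * S.t0 / 2 + S.M.wP * S.M.c1
      + S.M.wX * (4 * S.M.lam ^ 2 / S.M.th * (1 + S.s0) ^ 2)
      + (mv S.n0a φ + (mv S.n0f φ + (mv S.n0q φ + mv S.n0r φ))) := by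
    unfold Sm.n0 Sm.k0
    rw [mv_cons, mv_append, mv_append, mv_append, pow_zero, mul_one]
    push_cast
    ring
  have e1 : mv S.n1 φ = (S.z1 / (2 * S.t0) + S.z0 + S.M.wX * ((S.M.lam ^ 2 + S.M.eta)
      * (S.s0 * (2 + S.s0)) + 2 * S.M.lam ^ 2 * (1 + S.s0) ^ 2)) * φ ^ 2
      + (mv S.n1a φ + mv S.n1f φ) := by
    unfold Sm.n1 Sm.k1
    rw [mv_cons, mv_append]
    push_cast
    ring
  rw [e0, e1] at hmain
  linarith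

/-- **the inequality for small `a`** -/
theorem sml_sound {S : Sm} {m2 : ℕ} {b1 b2 : List ℚ} (h : S.smlOK m2 b1 b2 = true) {m : ℕ}
    (hm : m2 = 0 ∨ m ≤ m2) {ρ y φ : ℝ} (hρ : 0 ≤ ρ) (hy : 0 ≤ y) (hφ : 0 ≤ φ)
    (hφ2 : φ ^ 2 ≤ m * (y * ρ - y ^ 2 / 4)) (ha0 : y + (1 - ρ) ^ 2 ≤ S.a0) :
    PS S.j S.X2 S.X1 S.X0 S.z2 S.z1 S.z0 (y + (1 - ρ) ^ 2)
        (if 1 ≤ ρ then y else y + (1 - ρ) ^ 2) φ
      ≤ S.c * (y + (1 - ρ) ^ 2) + S.M.row (y + (1 - ρ) ^ 2) (ρ ^ 2 - 1) φ := by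
  obtain ⟨hsg, -, -, -⟩ := smlOK_spec h
  obtain ⟨-, ⟨g4, g5, g6, -⟩, -, -⟩ := sgn_spec hsg
  have g4' : (0 : ℝ) < S.a0 := by exact_mod_cast g4
  have g5' : (0 : ℝ) ≤ S.s0 := by exact_mod_cast g5
  have g6' : (S.a0 : ℝ) ≤ (S.s0 : ℝ) ^ 2 := by exact_mod_cast g6
  have ha : 0 ≤ y + (1 - ρ) ^ 2 := by positivity
  have hs0 : 0 ≤ √(y + (1 - ρ) ^ 2) := Real.sqrt_nonneg _
  have hss : √(y + (1 - ρ) ^ 2) ^ 2 = y + (1 - ρ) ^ 2 := Real.sq_sqrt ha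
  have hρ1 : |ρ - 1| ≤ √(y + (1 - ρ) ^ 2) := Real.abs_le_sqrt (by nlinarith)
  obtain ⟨hρ2, hρ3⟩ := abs_le.1 hρ1
  refine sml_abq h hφ (fun h0 => ?_) (s := √(y + (1 - ρ) ^ 2)) ?_ ?_ ?_ hs0 hss ha0
    (Real.sqrt_le_iff.2 ⟨g5', ha0.trans g6'⟩) ?_ ?_
  · have hm' : m ≤ m2 := hm.resolve_left h0
    have hm'' : (m : ℝ) ≤ m2 := by exact_mod_cast hm'
    have hτ : y * ρ - y ^ 2 / 4 ≤ y + (1 - ρ) ^ 2 := by nlinarith [sq_nonneg (y / 2 + 1 - ρ)]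
    exact (hφ2.trans (mul_le_mul_of_nonneg_left hτ (Nat.cast_nonneg m))).trans
      (mul_le_mul hm'' ha0 ha (Nat.cast_nonneg m2))
  · rw [show ρ ^ 2 - 1 = (ρ - 1) * (ρ + 1) by ring, abs_mul, abs_of_nonneg (by linarith : 0 ≤ ρ + 1)]
    exact mul_le_mul hρ1 (by linarith) (by linarith) hs0
  · nlinarith
  · nlinarith
  · split_ifs
    · exact hy
    · exact ha
  · split_ifs
    · nlinarith [sq_nonneg (1 - ρ)]
    · exact le_rfl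

end Vale.Agent.P224.R2.H919
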